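import Vale.Agent.P240.R2.H945.SemiE

/-!
# P240: cycles of the graph of involutions and four-groups

`cp H` = pairs of distinct commuting involutions of `H`, `iv H` = involutions of `H`.

`graph_top` : `3 * #iv H < #cp H` gives a top cycle of rank two of `H`.
`semi_graph` : rank three, `K ≥ N`, a set `Φ` of involutions of `K` in one coset of `N`.
-/

set_option autoImplicit false
set_option linter.all false

namespace Vale.Agent.P240.R2.H698

open Finsupp hiding cons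
open Subgroup Vale.Agent.P240.K
open scoped Classical

universe u v

noncomputable section

section chains
variable {α : Type u}

lemma finrank_supp (s : Finset (List α)) (P : List α → Prop) (h : ∀ l, P l ↔ l ∈ s) :
    Module.finrank ℚ (Sp ℚ P) = s.card ∧ FiniteDimensional ℚ (Sp ℚ P) := by
  have h1 : {l | P l} = (s : Set (List α)) := Set.ext h
  have e : Sp ℚ P ≃ₗ[ℚ] ({l | P l} →₀ ℚ) := Finsupp.supportedEquivFinsupp _
  have hf : Finite {l | P l} := by rw [h1]; exact s.finite_toSet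
  have : Fintype {l | P l} := Fintype.ofFinite _
  refine ⟨?_, Module.Finite.equiv e.symm⟩
  rw [e.finrank_eq, Module.finrank_finsupp_self, ← Nat.card_eq_fintype_card, h1]
  simp

/-- cycles supported on a finite set of flags -/
def Cy (Fl : Finset (α × α)) : Submodule ℚ (Ch ℚ α) :=
  Sp ℚ (fun l => ∃ x ∈ Fl, l = [x.1, x.2]) ⊓ LinearMap.ker bd

lemma bd_two (a b : α) (r : ℚ) : bd (single [a, b] r) = single [b] r - single [a] r := by
  rw [bd_single_cons, bd_single_cons]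
  simp

lemma supp_fl (Fl : Finset (α × α)) :
    Module.finrank ℚ (Sp ℚ (fun l : List α => ∃ x ∈ Fl, l = [x.1, x.2])) = Fl.card ∧
      FiniteDimensional ℚ (Sp ℚ (fun l : List α => ∃ x ∈ Fl, l = [x.1, x.2])) := by
  have h := finrank_supp (Fl.image fun x => [x.1, x.2])
    (fun l : List α => ∃ x ∈ Fl, l = [x.1, x.2]) (fun l => by
      rw [Finset.mem_image]
      exact ⟨fun ⟨x, hx, h⟩ => ⟨x, hx, h.symm⟩, fun ⟨x, hx, h⟩ => ⟨x, hx, h.symm⟩⟩)
  rw [Finset.card_image_of_injective] at h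
  · exact h
  · rintro ⟨a, b⟩ ⟨c, d⟩ h
    simpa using h

instance (Fl : Finset (α × α)) : FiniteDimensional ℚ (Cy Fl) := by
  have := (supp_fl Fl).2
  exact Submodule.finiteDimensional_of_le inf_le_left

/-- the boundary on the chains supported on the flags -/
def Dd (Fl : Finset (α × α)) :
    (Sp ℚ (fun l : List α => ∃ x ∈ Fl, l = [x.1, x.2])) →ₗ[ℚ] Ch ℚ α :=
  bd.domRestrict _

lemma finrank_Cy (Fl : Finset (α × α)) :
    Module.finrank ℚ (Cy Fl) = Module.finrank ℚ (LinearMap.ker (Dd Fl)) := by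
  have h1 : Cy Fl = (LinearMap.ker (Dd Fl)).map (Submodule.subtype _) := by
    ext c
    constructor
    · rintro ⟨h1, h2⟩
      exact ⟨⟨c, h1⟩, h2, rfl⟩
    · rintro ⟨⟨c, h1⟩, h2, rfl⟩
      exact ⟨h1, h2⟩
  rw [h1]
  exact (Submodule.equivMapOfInjective _ (Submodule.subtype_injective _) _).finrank_eq.symm

lemma card_le_Cy (Fl : Finset (α × α)) :
    Fl.card ≤ Module.finrank ℚ (Cy Fl) + (Fl.image Prod.fst).card + (Fl.image Prod.snd).card := by
  obtain ⟨h1, h2⟩ := supp_fl Fl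
  have h3 := LinearMap.finrank_range_add_finrank_ker (Dd Fl)
  rw [h1, ← finrank_Cy] at h3
  have h4 := finrank_supp (((Fl.image Prod.fst) ∪ (Fl.image Prod.snd)).image fun a => [a])
    (fun l : List α => ∃ a ∈ (Fl.image Prod.fst) ∪ (Fl.image Prod.snd), l = [a]) (fun l => by
      rw [Finset.mem_image]
      exact ⟨fun ⟨x, hx, h⟩ => ⟨x, hx, h.symm⟩, fun ⟨x, hx, h⟩ => ⟨x, hx, h.symm⟩⟩)
  have h5 : LinearMap.range (Dd Fl) ≤
      Sp ℚ (fun l : List α => ∃ a ∈ (Fl.image Prod.fst) ∪ (Fl.image Prod.snd), l = [a]) := by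
    rintro _ ⟨⟨c, hc⟩, rfl⟩
    refine map_mem bd ?_ hc
    rintro l ⟨x, hx, rfl⟩
    rw [bd_two]
    refine Submodule.sub_mem _ (single_mem_Sp ⟨x.2, ?_, rfl⟩ _) (single_mem_Sp ⟨x.1, ?_, rfl⟩ _)
    · exact Finset.mem_union_right _ (Finset.mem_image_of_mem _ hx)
    · exact Finset.mem_union_left _ (Finset.mem_image_of_mem _ hx)
  have := h4.2
  have h6 := Submodule.finrank_mono h5
  rw [h4.1] at h6
  have h7 := Finset.card_image_le (s := (Fl.image Prod.fst) ∪ (Fl.image Prod.snd))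
    (f := fun a : α => [a])
  have h8 := Finset.card_union_le (Fl.image Prod.fst) (Fl.image Prod.snd)
  omega

lemma Cy_le_card (Fl : Finset (α × α)) (hd : ∀ x ∈ Fl, ∀ y ∈ Fl, x.1 ≠ y.2) :
    Module.finrank ℚ (Cy Fl) + (Fl.image Prod.fst).card ≤ Fl.card := by
  obtain ⟨h1, h2⟩ := supp_fl Fl
  let vs := Fl.image Prod.fst
  have hex : ∀ v : vs, ∃ c, (v.1, c) ∈ Fl := by
    rintro ⟨v, hv⟩
    obtain ⟨x, hx, rfl⟩ := Finset.mem_image.1 hv
    exact ⟨x.2, hx⟩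
  choose C hC using hex
  let g : Ch ℚ α →ₗ[ℚ] (vs → ℚ) := LinearMap.pi fun v => Finsupp.lapply [v.1]
  let D' := g.comp (Dd Fl)
  have hsurj : LinearMap.range D' = ⊤ := by
    rw [LinearMap.range_eq_top]
    intro t
    let c : Ch ℚ α := ∑ v : vs, single [v.1, C v] (- t v)
    have hc : c ∈ Sp ℚ (fun l : List α => ∃ x ∈ Fl, l = [x.1, x.2]) :=
      Submodule.sum_mem _ fun v _ => single_mem_Sp ⟨(v.1, C v), hC v, rfl⟩ _
    refine ⟨⟨c, hc⟩, ?_⟩
    funext w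
    have e : D' ⟨c, hc⟩ w = (bd c) [w.1] := rfl
    rw [e]
    have e2 : bd c = ∑ v : vs, (single [C v] (- t v) - single [v.1] (- t v)) := by
      rw [map_sum]
      exact Finset.sum_congr rfl fun v _ => bd_two _ _ _
    rw [e2, Finsupp.finset_sum_apply, Finset.sum_eq_single w]
    · have hne : C w ≠ w.1 := fun h => hd _ (hC w) _ (hC w) h.symm
      simp [Finsupp.single_apply, hne]
    · intro v _ hv
      have hne : C v ≠ w.1 := fun h => hd _ (hC w) _ (hC v) h.symm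
      have hne' : v.1 ≠ w.1 := fun h => hv (Subtype.ext h)
      simp [Finsupp.single_apply, hne, hne']
    · intro h
      exact absurd (Finset.mem_univ _) h
  have h3 := LinearMap.finrank_range_add_finrank_ker D'
  rw [hsurj, finrank_top, h1, Module.finrank_fintype_fun_eq_card, Fintype.card_coe] at h3
  have h4 : LinearMap.ker (Dd Fl) ≤ LinearMap.ker D' := by
    intro x hx
    rw [LinearMap.mem_ker] at hx ⊢
    show g (Dd Fl x) = 0
    rw [hx, map_zero]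
  have h5 := Submodule.finrank_mono h4
  rw [← finrank_Cy] at h5
  have : vs.card = (Fl.image Prod.fst).card := rfl
  omega

end chains

section groups
variable {Γ : Type u} [Group Γ] [Finite Γ]

/-- involutions of `H` -/
def iv (H : Subgroup Γ) : Finset Γ := (Set.toFinite {y : Γ | y ∈ H ∧ y ≠ 1 ∧ y * y = 1}).toFinset

/-- commuting pairs of distinct involutions of `H` -/
def cp (H : Subgroup Γ) : Finset (Γ × Γ) :=
  (Set.toFinite {x : Γ × Γ | x.1 ∈ iv H ∧ x.2 ∈ iv H ∧ x.1 ≠ x.2 ∧ x.1 * x.2 = x.2 * x.1}).toFinset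

lemma mem_iv {H : Subgroup Γ} {y : Γ} : y ∈ iv H ↔ y ∈ H ∧ y ≠ 1 ∧ y * y = 1 :=
  Set.Finite.mem_toFinset _

lemma mem_cp {H : Subgroup Γ} {x : Γ × Γ} :
    x ∈ cp H ↔ x.1 ∈ iv H ∧ x.2 ∈ iv H ∧ x.1 ≠ x.2 ∧ x.1 * x.2 = x.2 * x.1 :=
  Set.Finite.mem_toFinset _

/-- the four-group of a pair -/
def V4 (x : Γ × Γ) : Subgroup Γ := closure {x.1, x.2}

lemma mem_V4 {H : Subgroup Γ} {x : Γ × Γ} (hx : x ∈ cp H) {u : Γ} :
    u ∈ V4 x ↔ u = 1 ∨ u = x.1 ∨ u = x.2 ∨ u = x.1 * x.2 := by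
  obtain ⟨h1, h2, h3, h4⟩ := mem_cp.1 hx
  obtain ⟨-, -, h1⟩ := mem_iv.1 h1
  obtain ⟨-, -, h2⟩ := mem_iv.1 h2
  obtain ⟨y, z⟩ := x
  simp only at h1 h2 h3 h4 ⊢
  constructor
  · intro hu
    unfold V4 at hu
    induction hu using Subgroup.closure_induction with
    | mem w hw =>
      rcases hw with rfl | hw
      · exact Or.inr (Or.inl rfl)
      · exact Or.inr (Or.inr (Or.inl hw))
    | one => exact Or.inl rfl
    | mul a b _ _ ha hb =>
      have e1 : y * (y * z) = z := by rw [← mul_assoc, h1, one_mul]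
      have e2 : z * (y * z) = y := by rw [h4, ← mul_assoc, h2, one_mul]
      have e3 : y * z * y = z := by rw [h4, mul_assoc, h1, mul_one]
      have e4 : y * z * z = y := by rw [mul_assoc, h2, mul_one]
      have e5 : y * z * (y * z) = 1 := by rw [← mul_assoc, e3, h2]
      rcases ha with rfl | rfl | rfl | rfl <;> rcases hb with rfl | rfl | rfl | rfl <;>
        simp [h1, h2, e1, e2, e3, e4, e5, h4.symm]
    | inv a _ ha =>
      have i1 : y⁻¹ = y := inv_eq_of_mul_eq_one_left h1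
      have i2 : z⁻¹ = z := inv_eq_of_mul_eq_one_left h2
      rcases ha with rfl | rfl | rfl | rfl
      · simp
      · simp [i1]
      · simp [i2]
      · rw [mul_inv_rev, i1, i2, h4.symm]; simp
  · have hy : y ∈ V4 (y, z) := subset_closure (by simp)
    have hz : z ∈ V4 (y, z) := subset_closure (by simp)
    rintro (rfl | rfl | rfl | rfl)
    · exact one_mem _
    · exact hy
    · exact hz
    · exact mul_mem hy hz

lemma ne_facts {H : Subgroup Γ} {x : Γ × Γ} (hx : x ∈ cp H) :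
    x.1 ≠ 1 ∧ x.2 ≠ 1 ∧ x.1 ≠ x.2 ∧ x.1 * x.2 ≠ 1 ∧ x.1 * x.2 ≠ x.1 ∧ x.1 * x.2 ≠ x.2 := by
  obtain ⟨h1, h2, h3, h4⟩ := mem_cp.1 hx
  obtain ⟨-, n1, h1⟩ := mem_iv.1 h1
  obtain ⟨-, n2, h2⟩ := mem_iv.1 h2
  refine ⟨n1, n2, h3, fun h => h3 ?_, fun h => n2 ?_, fun h => n1 ?_⟩
  · have : x.1 * x.2 = x.1 * x.1 := by rw [h, h1]
    exact (mul_left_cancel this).symm
  · exact mul_eq_left.1 h
  · exact mul_eq_right.1 h

lemma V4_mem {H : Subgroup Γ} {x : Γ × Γ} (hx : x ∈ cp H) : V4 x ∈ Ain 2 H := by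
  obtain ⟨h1, h2, h3, h4⟩ := mem_cp.1 hx
  obtain ⟨m1, n1, h1⟩ := mem_iv.1 h1
  obtain ⟨m2, n2, h2⟩ := mem_iv.1 h2
  refine ⟨⟨fun h => n1 ?_, ?_, ?_⟩, ?_⟩
  · have : x.1 ∈ V4 x := (mem_V4 hx).2 (Or.inr (Or.inl rfl))
    rwa [h, mem_bot] at this
  · intro a ha b hb
    have hc : Commute x.1 x.2 := h4
    have hcc : ∀ u, u ∈ V4 x → Commute u x.1 ∧ Commute u x.2 := by
      intro u hu
      rcases (mem_V4 hx).1 hu with rfl | rfl | rfl | rfl
      · exact ⟨Commute.one_left _, Commute.one_left _⟩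
      · exact ⟨Commute.refl _, hc⟩
      · exact ⟨hc.symm, Commute.refl _⟩
      · exact ⟨(Commute.refl _).mul_left hc.symm, hc.mul_left (Commute.refl _)⟩
    obtain ⟨c1, c2⟩ := hcc a ha
    rcases (mem_V4 hx).1 hb with rfl | rfl | rfl | rfl
    · exact Commute.one_right a
    · exact c1
    · exact c2
    · exact c1.mul_right c2
  · intro a ha
    rw [pow_two]
    rcases (mem_V4 hx).1 ha with rfl | rfl | rfl | rfl
    · simp
    · exact h1
    · exact h2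
    · calc x.1 * x.2 * (x.1 * x.2) = x.1 * (x.2 * x.1) * x.2 := by group
        _ = x.1 * (x.1 * x.2) * x.2 := by rw [h4]
        _ = (x.1 * x.1) * (x.2 * x.2) := by group
        _ = 1 := by rw [h1, h2, one_mul]
  · unfold V4
    rw [closure_le]
    rintro w (rfl | hw)
    · exact m1
    · rw [hw]; exact m2

/-- the three involutions -/
def tr (x : Γ × Γ) : Finset Γ := {x.1, x.2, x.1 * x.2}

lemma card_tr {H : Subgroup Γ} {x : Γ × Γ} (hx : x ∈ cp H) : (tr x).card = 3 := by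
  obtain ⟨-, -, h3, -, h5, h6⟩ := ne_facts hx
  unfold tr
  rw [Finset.card_insert_of_notMem, Finset.card_pair h6.symm]
  simp only [Finset.mem_insert, Finset.mem_singleton, not_or]
  exact ⟨h3, h5.symm⟩

lemma mem_tr {H : Subgroup Γ} {x : Γ × Γ} (hx : x ∈ cp H) {u : Γ} :
    u ∈ tr x ↔ u ∈ V4 x ∧ u ≠ 1 := by
  obtain ⟨h1, h2, h3, h4, h5, h6⟩ := ne_facts hx
  rw [mem_V4 hx]
  unfold tr
  simp only [Finset.mem_insert, Finset.mem_singleton]
  constructor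
  · rintro (rfl | rfl | rfl)
    · exact ⟨Or.inr (Or.inl rfl), h1⟩
    · exact ⟨Or.inr (Or.inr (Or.inl rfl)), h2⟩
    · exact ⟨Or.inr (Or.inr (Or.inr rfl)), h4⟩
  · rintro ⟨rfl | h, hne⟩
    · exact absurd rfl hne
    · exact h

lemma card_V4 {H : Subgroup Γ} {x : Γ × Γ} (hx : x ∈ cp H) : Nat.card (V4 x) = 4 := by
  have h1 : ((V4 x : Subgroup Γ) : Set Γ) = ((insert 1 (tr x) : Finset Γ) : Set Γ) := by
    ext u
    rw [SetLike.mem_coe, Finset.mem_coe, Finset.mem_insert, mem_tr hx]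
    constructor
    · intro hu
      by_cases h : u = 1
      · exact Or.inl h
      · exact Or.inr ⟨hu, h⟩
    · rintro (rfl | ⟨h, -⟩)
      · exact one_mem _
      · exact h
  have h2 : Nat.card (V4 x) = ((insert 1 (tr x) : Finset Γ) : Set Γ).ncard := by
    rw [← h1]; rfl
  rw [h2, Set.ncard_coe_finset, Finset.card_insert_of_notMem, card_tr hx]
  rw [mem_tr hx]
  exact fun h => h.2 rfl

/-- pairs from the same four-group -/
lemma V4_eq_iff {H : Subgroup Γ} {x x' : Γ × Γ} (hx : x ∈ cp H) :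
    (x' ∈ cp H ∧ V4 x' = V4 x) ↔ x' ∈ (tr x).offDiag := by
  rw [Finset.mem_offDiag, mem_tr hx, mem_tr hx]
  constructor
  · rintro ⟨h1, h2⟩
    obtain ⟨n1, n2, n3, -⟩ := ne_facts h1
    rw [← h2, mem_V4 h1, mem_V4 h1]
    exact ⟨⟨Or.inr (Or.inl rfl), n1⟩, ⟨Or.inr (Or.inr (Or.inl rfl)), n2⟩, n3⟩
  · rintro ⟨⟨h1, n1⟩, ⟨h2, n2⟩, n3⟩
    obtain ⟨⟨-, hc, hs⟩, hH⟩ := V4_mem hx
    have h5 : x' ∈ cp H := by
      refine mem_cp.2 ⟨mem_iv.2 ⟨hH h1, n1, ?_⟩, mem_iv.2 ⟨hH h2, n2, ?_⟩, n3, hc _ h1 _ h2⟩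
      · rw [← pow_two]; exact hs _ h1
      · rw [← pow_two]; exact hs _ h2
    refine ⟨h5, ?_⟩
    have h6 : V4 x' ≤ V4 x := by
      unfold V4
      rw [closure_le]
      rintro w (rfl | hw)
      · exact h1
      · rw [hw]; exact h2
    exact Subgroup.eq_of_le_of_card_ge h6 (by rw [card_V4 hx, card_V4 h5])

/-- flags -/
def fl (H : Subgroup Γ) : Finset (Subgroup Γ × Subgroup Γ) :=
  (cp H).image fun x => (V4 x, zpowers x.1)

lemma card_vs (H : Subgroup Γ) : (cp H).card = ((cp H).image V4).card * 6 := by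
  rw [Finset.card_eq_sum_card_image V4 (cp H), Finset.sum_const_nat]
  intro V hV
  obtain ⟨x, hx, rfl⟩ := Finset.mem_image.1 hV
  have h1 : (cp H).filter (fun a => V4 a = V4 x) = (tr x).offDiag := by
    ext a
    rw [Finset.mem_filter, V4_eq_iff hx]
  rw [h1, Finset.offDiag_card, card_tr hx]

lemma mem_zp {y w : Γ} (hy : y * y = 1) (hw : w ∈ zpowers y) : w = 1 ∨ w = y := by
  obtain ⟨k, rfl⟩ := mem_zpowers_iff.1 hw
  have h2 : y ^ (2 : ℤ) = 1 := by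
    rw [zpow_two, hy]
  rcases Int.even_or_odd' k with ⟨m, rfl | rfl⟩
  · left
    rw [zpow_mul, h2, one_zpow]
  · right
    rw [zpow_add, zpow_mul, h2, one_zpow, one_mul, zpow_one]

lemma card_fl (H : Subgroup Γ) : (cp H).card = (fl H).card * 2 := by
  rw [Finset.card_eq_sum_card_image (fun x => (V4 x, zpowers x.1)) (cp H), Finset.sum_const_nat]
  · rfl
  intro V hV
  obtain ⟨x, hx, rfl⟩ := Finset.mem_image.1 hV
  have hf := ne_facts hx
  have h1 : (cp H).filter (fun a => (V4 a, zpowers a.1) = (V4 x, zpowers x.1)) =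
      {(x.1, x.2), (x.1, x.1 * x.2)} := by
    ext ⟨a, b⟩
    rw [Finset.mem_filter, Prod.mk.injEq, ← and_assoc, V4_eq_iff hx, Finset.mem_offDiag,
      Finset.mem_insert, Finset.mem_singleton, Prod.mk.injEq, Prod.mk.injEq]
    constructor
    · rintro ⟨⟨h2, h3, h4⟩, h5⟩
      have h6 : a ∈ zpowers x.1 := by rw [← h5]; exact mem_zpowers a
      rcases mem_zp (mem_iv.1 (mem_cp.1 hx).1).2.2 h6 with h7 | h7
      · exact absurd h7 ((mem_tr hx).1 h2).2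
      · have h8 : b = x.1 ∨ b = x.2 ∨ b = x.1 * x.2 := by
          simpa [tr] using h3
        simp only at h4 h7
        subst h7
        rcases h8 with h8 | h8 | h8
        · exact absurd h8.symm h4
        · exact Or.inl ⟨rfl, h8⟩
        · exact Or.inr ⟨rfl, h8⟩
    · rintro (⟨rfl, rfl⟩ | ⟨rfl, rfl⟩)
      · refine ⟨⟨?_, ?_, hf.2.2.1⟩, rfl⟩ <;> simp [tr]
      · refine ⟨⟨?_, ?_, hf.2.2.2.2.1.symm⟩, rfl⟩ <;> simp [tr]
  rw [h1, Finset.card_pair]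
  intro h
  exact hf.2.2.2.2.2 (Prod.mk.inj h).2.symm

lemma fst_fl (H : Subgroup Γ) : (fl H).image Prod.fst = (cp H).image V4 := by
  unfold fl
  rw [Finset.image_image]
  rfl

lemma snd_fl (H : Subgroup Γ) : ((fl H).image Prod.snd).card ≤ (iv H).card := by
  have h1 : (fl H).image Prod.snd ⊆ (iv H).image zpowers := by
    intro C hC
    unfold fl at hC
    rw [Finset.image_image] at hC
    obtain ⟨x, hx, rfl⟩ := Finset.mem_image.1 hC
    exact Finset.mem_image_of_mem _ (mem_cp.1 hx).1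
  exact (Finset.card_le_card h1).trans Finset.card_image_le

lemma zp_mem {H : Subgroup Γ} {y : Γ} (hy : y ∈ iv H) : zpowers y ∈ Ain 2 H := by
  obtain ⟨h1, h2, h3⟩ := mem_iv.1 hy
  refine ⟨⟨fun h => h2 ?_, ?_, ?_⟩, ?_⟩
  · exact zpowers_eq_bot.1 h
  · intro a ha b hb
    rcases mem_zp h3 ha with rfl | rfl <;> rcases mem_zp h3 hb with rfl | rfl <;> simp
  · intro a ha
    rw [pow_two]
    rcases mem_zp h3 ha with rfl | rfl
    · simp
    · exact h3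
  · exact zpowers_le.2 h1

lemma zp_lt {H : Subgroup Γ} {x : Γ × Γ} (hx : x ∈ cp H) : zpowers x.1 < V4 x := by
  have h1 : x.1 ∈ V4 x := (mem_V4 hx).2 (Or.inr (Or.inl rfl))
  have h2 : x.2 ∈ V4 x := (mem_V4 hx).2 (Or.inr (Or.inr (Or.inl rfl)))
  refine lt_of_le_of_ne (zpowers_le.2 h1) fun h => ?_
  rw [← h] at h2
  obtain ⟨-, n2, n3, -⟩ := ne_facts hx
  rcases mem_zp (mem_iv.1 (mem_cp.1 hx).1).2.2 h2 with h4 | h4
  · exact n2 h4
  · exact n3 h4.symm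

lemma card_zp {H : Subgroup Γ} {y : Γ} (hy : y ∈ iv H) : Nat.card (zpowers y) = 2 := by
  obtain ⟨h1, h2, h3⟩ := mem_iv.1 hy
  rw [Nat.card_zpowers]
  exact orderOf_eq_prime (by rw [pow_two]; exact h3) h2

lemma fl_disj (H : Subgroup Γ) : ∀ x ∈ fl H, ∀ y ∈ fl H, x.1 ≠ y.2 := by
  intro a ha b hb h
  obtain ⟨x, hx, rfl⟩ := Finset.mem_image.1 ha
  obtain ⟨y, hy, rfl⟩ := Finset.mem_image.1 hb
  have h1 := card_V4 hx
  have h2 := card_zp (mem_cp.1 hy).1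
  simp only at h
  rw [h, h2] at h1
  omega

/-- the space of cycles has dimension at least `(#cp - 3 #iv) / 3` -/
lemma le_Cy (H : Subgroup Γ) : (cp H).card ≤ 3 * Module.finrank ℚ (Cy (fl H)) + 3 * (iv H).card := by
  have h1 := card_le_Cy (fl H)
  have h2 := snd_fl H
  have h3 := card_vs H
  have h4 := card_fl H
  rw [fst_fl] at h1
  omega

lemma Cy_le (H : Subgroup Γ) : 3 * Module.finrank ℚ (Cy (fl H)) ≤ (cp H).card := by
  have h1 := Cy_le_card (fl H) (fl_disj H)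
  have h3 := card_vs H
  have h4 := card_fl H
  rw [fst_fl] at h1
  omega

lemma Cy_head {H : Subgroup Γ} {c : Ch ℚ (Subgroup Γ)} (hc : c ∈ Cy (fl H)) :
    c ∈ Sp ℚ (fun l => (st (Ain 2 H) l ∧ l.length = 2) ∧
      ∃ B ∈ {B | ∃ x ∈ cp H, B = V4 x}, l.head? = some B) := by
  refine Sp_mono ?_ hc.1
  rintro l ⟨a, ha, rfl⟩
  obtain ⟨x, hx, rfl⟩ := Finset.mem_image.1 ha
  refine ⟨⟨⟨?_, ?_⟩, rfl⟩, V4 x, ⟨x, hx, rfl⟩, rfl⟩
  · simpa using zp_lt hx
  · intro a ha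
    rcases List.mem_pair.1 ha with rfl | rfl
    · exact V4_mem hx
    · exact zp_mem (mem_cp.1 hx).1

/-- **top cycles of rank two** -/
theorem graph_top (𝕜 : Type v) [Field 𝕜] (H : Subgroup Γ) (h : 3 * (iv H).card < (cp H).card) :
    ∃ x ∈ cp H, ∃ (α : Ch 𝕜 (Subgroup Γ)) (φ : List (Subgroup Γ)), TopCycle 𝕜 2 H (V4 x) α φ := by
  have h1 := le_Cy H
  have h2 : 0 < Module.finrank ℚ (Cy (fl H)) := by omega
  obtain ⟨c, hc⟩ := (Module.finrank_pos_iff_exists_ne_zero (R := ℚ)).1 h2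
  obtain ⟨B, ⟨x, hx, rfl⟩, α, φ, h3, -⟩ := H945.topCycle_of_rat (p := 2) 𝕜 (H := H) (m := 2)
    (T := {B | ∃ x ∈ cp H, B = V4 x}) (by
      rintro _ ⟨x, hx, rfl⟩
      exact card_V4 hx) (Cy_head c.2) c.2.2 (fun h0 => hc (Subtype.ext h0))
  exact ⟨x, hx, α, φ, h3⟩

/-- **top cycles of rank three** -/
theorem semi_graph (𝕜 : Type v) [Field 𝕜] {N K : Subgroup Γ} (Φ : Finset Γ) (hNK : N ≤ K)
    (hΦK : ∀ φ ∈ Φ, φ ∈ K) (hΦp : ∀ φ ∈ Φ, φ ^ 2 = 1) (hΦN : ∀ φ ∈ Φ, φ ∉ N)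
    (hΦc : ∀ φ ∈ Φ, ∀ ψ ∈ Φ, φ⁻¹ * ψ ∈ N)
    (hcount : (cp N).card + 3 * ∑ φ ∈ Φ, (iv (N ⊓ centralizer (zpowers φ : Set Γ))).card <
      ∑ φ ∈ Φ, (cp (N ⊓ centralizer (zpowers φ : Set Γ))).card) :
    ∃ φ ∈ Φ, ∃ x ∈ cp (N ⊓ centralizer (zpowers φ : Set Γ)),
      ∃ (α : Ch 𝕜 (Subgroup Γ)) (l : List (Subgroup Γ)), TopCycle 𝕜 2 K (zpowers φ ⊔ V4 x) α l := by
  let C : Γ → Subgroup Γ := fun φ => N ⊓ centralizer (zpowers φ : Set Γ)
  have hle : ∀ φ, C φ ≤ N := fun φ => inf_le_left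
  have hmono : ∀ φ, cp (C φ) ⊆ cp N := by
    intro φ x hx
    obtain ⟨h1, h2, h3, h4⟩ := mem_cp.1 hx
    obtain ⟨m1, n1, h1⟩ := mem_iv.1 h1
    obtain ⟨m2, n2, h2⟩ := mem_iv.1 h2
    exact mem_cp.2 ⟨mem_iv.2 ⟨hle φ m1, n1, h1⟩, mem_iv.2 ⟨hle φ m2, n2, h2⟩, h3, h4⟩
  have hc : Module.finrank ℚ (Cy (fl N)) <
      ∑ φ ∈ Φ, Module.finrank ℚ ((Cy (fl (C φ))).map LinearMap.id) := by
    have h1 := Cy_le N
    have h2 : ∑ φ ∈ Φ, (cp (C φ)).card ≤
        ∑ φ ∈ Φ, (3 * Module.finrank ℚ (Cy (fl (C φ))) + 3 * (iv (C φ)).card) :=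
      Finset.sum_le_sum fun φ _ => le_Cy (C φ)
    rw [Finset.sum_add_distrib, ← Finset.mul_sum, ← Finset.mul_sum] at h2
    have h4 : ∀ φ, Module.finrank ℚ ((Cy (fl (C φ))).map LinearMap.id) =
        Module.finrank ℚ (Cy (fl (C φ))) := fun φ => by rw [Submodule.map_id]
    rw [Finset.sum_congr rfl fun φ _ => h4 φ]
    have h3 : (cp N).card + 3 * ∑ φ ∈ Φ, (iv (C φ)).card < ∑ φ ∈ Φ, (cp (C φ)).card := hcount
    omega
  obtain ⟨φ, hφ, B, ⟨x, hx, rfl⟩, α, l, h1, -⟩ := H945.semi_top (p := 2) (N := N) (K := K) (r := 2)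
    𝕜 Φ hNK hΦK hΦp hΦN hΦc (LinearMap.id : Ch ℚ (Subgroup Γ) →ₗ[ℚ] Ch ℚ (Subgroup Γ))
    (LinearMap.id : Ch ℚ (Subgroup Γ) →ₗ[ℚ] Ch ℚ (Subgroup Γ)) (fun φ => Cy (fl (C φ)))
    (fun φ _ => inferInstance) (Cy (fl N))
    (fun φ _ z hz => ⟨Sp_mono (by
      rintro l ⟨a, ha, rfl⟩
      obtain ⟨x, hx, rfl⟩ := Finset.mem_image.1 ha
      exact ⟨_, Finset.mem_image_of_mem _ (hmono φ hx), rfl⟩) hz.1, hz.2⟩)
    (fun φ => {B | ∃ x ∈ cp (C φ), B = V4 x})
    (by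
      rintro φ - _ ⟨x, hx, rfl⟩
      exact ⟨(V4_mem hx).2, card_V4 hx⟩)
    (fun φ _ z hz => Sp_mono (fun l hl => hl.2) (Cy_head hz))
    (fun φ _ z hz => Sp_mono (fun l hl => hl.1) (Cy_head hz))
    (fun φ _ z hz => hz.2) (fun φ _ z _ h => h) hc
  exact ⟨φ, hφ, x, hx, α, l, h1⟩

end groups

end

end Vale.Agent.P240.R2.H698
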