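import Vale.Agent.P240.R2.H698.TyC
import Vale.Agent.P240.R2.H715.SpStmts

/-!
# P240: `StmtTY3`, the cycle of rank three in `PSL_2(q)⟨σ⟩`
-/

set_option autoImplicit false
set_option linter.all false

namespace Vale.Agent.P240.R2.H698

open Matrix Subgroup Vale.Agent.P240.K Vale.Agent.P240.R2.H715
open scoped Classical

universe u v w

theorem stmtTY3_of (hSQ : StmtSQ.{u}) : StmtTY3.{u, v, w} := by
  intro K _ _ h2 q₀ hq₀ hq σ hσ G _ _ j hj x hx hx2 hxN 𝕜 _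
  obtain ⟨a, b, -, hfix, hconj, -⟩ := hSQ K h2
  obtain ⟨ha, hb⟩ := hfix σ
  -- arithmetic
  have hchar : ringChar K ≠ 2 := by
    intro h
    apply h2
    have := ringChar.spec K 2
    rw [h] at this
    exact_mod_cast this.2 (dvd_refl 2)
  have hodd : Odd q₀ := by
    have h3 := FiniteField.odd_card_of_char_ne_two hchar
    rw [← Nat.card_eq_fintype_card, hq] at h3
    rcases Nat.even_or_odd q₀ with h4 | h4
    · have : Even (q₀ ^ 2) := h4.pow_of_ne_zero (by norm_num)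
      rw [Nat.even_iff] at this
      omega
    · exact h4
  obtain ⟨i, hi⟩ : ∃ i : K, i * i = -1 := by
    have h3 : IsSquare (-1 : K) := by
      rw [FiniteField.isSquare_neg_one_iff, ← Nat.card_eq_fintype_card, hq]
      obtain ⟨e, rfl⟩ := hodd
      have : (2 * e + 1) ^ 2 = 4 * (e * (e + 1)) + 1 := by ring
      omega
    obtain ⟨i, hi⟩ := h3
    exact ⟨i, hi.symm⟩
  set N := j.range with hN
  have hxx : x * x = 1 := by rw [← pow_two]; exact hx2
  have hNx : ∀ g ∈ N, x⁻¹ * g * x ∈ N := by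
    rintro _ ⟨h, rfl⟩
    have : x⁻¹ = x := inv_eq_of_mul_eq_one_left hxx
    rw [this]
    refine ⟨sg2 σ h, ?_⟩
    rw [← hx h (sg2 σ h) rfl, this]
  have hΦN : ∀ φ ∈ Ph j x, φ ∉ N := by
    intro φ hφ hmem
    obtain ⟨⟨n, rfl⟩, -⟩ := mem_Ph.1 hφ
    apply hxN
    have := N.mul_mem (N.inv_mem ⟨n, rfl⟩) hmem
    rwa [inv_mul_cancel_left] at this
  have hC : ∀ φ : G, ∀ y : G, y ∈ centralizer (zpowers φ : Set G) ↔ φ * y = y * φ := by
    intro φ y
    rw [mem_centralizer_iff]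
    constructor
    · intro h
      exact h φ (mem_zpowers φ)
    · intro h z hz
      obtain ⟨k, rfl⟩ := mem_zpowers_iff.1 hz
      exact (Commute.zpow_left (show Commute φ y from h) k)
  have hiv : ∀ φ : G, iv (N ⊓ centralizer (zpowers φ : Set G)) =
      (iv N).filter (fun y => φ * y = y * φ) := by
    intro φ
    ext y
    rw [mem_iv, Finset.mem_filter, mem_iv, mem_inf, hC]
    tauto
  have hcp : ∀ φ : G, cp (N ⊓ centralizer (zpowers φ : Set G)) =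
      (cp N).filter (fun y => φ * y.1 = y.1 * φ ∧ φ * y.2 = y.2 * φ) := by
    intro φ
    ext y
    rw [mem_cp, Finset.mem_filter, mem_cp, hiv, Finset.mem_filter, Finset.mem_filter]
    tauto
  -- the counts
  have c1 : 4 * (cp N).card ≤
      ∑ φ ∈ Ph j x, (cp (N ⊓ centralizer (zpowers φ : Set G))).card := by
    have h3 := Finset.sum_card_bipartiteAbove_eq_sum_card_bipartiteBelow (s := Ph j x) (t := cp N)
      (fun φ y => φ * y.1 = y.1 * φ ∧ φ * y.2 = y.2 * φ)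
    simp only [hcp]
    have h4 : ∑ φ ∈ Ph j x,
        ((cp N).filter (fun y => φ * y.1 = y.1 * φ ∧ φ * y.2 = y.2 * φ)).card =
        ∑ y ∈ cp N, ((Ph j x).filter fun φ => φ * y.1 = y.1 * φ ∧ φ * y.2 = y.2 * φ).card := h3
    rw [h4, mul_comm, ← smul_eq_mul]
    exact Finset.card_nsmul_le_sum _ _ _ fun y hy =>
      four_le hodd hq hσ h2 hj hx hx2 ha hb hconj hy
  have hpre : ∀ y ∈ iv N, ∃ A : S2 K, A.1 * A.1 = -1 ∧ j A = y := by
    intro y hy
    obtain ⟨⟨A, rfl⟩, n1, s1⟩ := mem_iv.1 hy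
    exact ⟨A, inv_pre h2 hj n1 s1, rfl⟩
  have c2 : ∑ φ ∈ Ph j x, (iv (N ⊓ centralizer (zpowers φ : Set G))).card ≤
      (iv N).card * (2 * q₀) := by
    have h3 := Finset.sum_card_bipartiteAbove_eq_sum_card_bipartiteBelow (s := Ph j x) (t := iv N)
      (fun φ y => φ * y = y * φ)
    simp only [hiv]
    have h4 : ∑ φ ∈ Ph j x, ((iv N).filter (fun y => φ * y = y * φ)).card =
        ∑ y ∈ iv N, ((Ph j x).filter fun φ => φ * y = y * φ).card := h3
    rw [h4, ← smul_eq_mul]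
    refine Finset.sum_le_card_nsmul _ _ _ fun y hy => ?_
    obtain ⟨A, hA, rfl⟩ := hpre y hy
    exact le_two (by omega) hq hσ h2 hj hx hx2 hi hA
  have c3 : (iv N).card * (q₀ ^ 2 - 1) ≤ 2 * (cp N).card := by
    have h3 : (cp N).card = ∑ y ∈ iv N, ((cp N).filter fun p => p.1 = y).card :=
      Finset.card_eq_sum_card_fiberwise fun p hp => (mem_cp.1 hp).1
    rw [h3, Finset.mul_sum, ← smul_eq_mul]
    refine Finset.card_nsmul_le_sum _ _ _ fun y hy => ?_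
    obtain ⟨A, hA, rfl⟩ := hpre y hy
    rw [← hq]
    exact le_nb h2 hj hi hA
  have c4 : 0 < (iv N).card := by
    obtain ⟨a', b', hQ, -⟩ := hSQ K h2
    refine Finset.card_pos.2 ⟨j a', mem_iv.2 ⟨⟨a', rfl⟩, ?_, ?_⟩⟩
    · intro h
      have h6 : a'.1 * a'.1 = 1 := by
        rcases (hj a').1 h with h | h <;> rw [h] <;> simp
      rw [hQ.sqa] at h6
      have h7 := congrFun (congrFun h6 0) 0
      rw [Matrix.neg_apply, Matrix.one_apply_eq] at h7
      exact h2 (by linear_combination -h7)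
    · rw [← map_mul, hj]
      exact Or.inr hQ.sqa
  have hnum : 4 * q₀ < q₀ ^ 2 - 1 := by
    have : q₀ ^ 2 = q₀ * q₀ := pow_two q₀
    have : 5 * q₀ ≤ q₀ * q₀ := Nat.mul_le_mul_right q₀ hq₀
    omega
  have hcount : (cp N).card +
      3 * ∑ φ ∈ Ph j x, (iv (N ⊓ centralizer (zpowers φ : Set G))).card <
      ∑ φ ∈ Ph j x, (cp (N ⊓ centralizer (zpowers φ : Set G))).card := by
    have h5 : (iv N).card * (4 * q₀) < (iv N).card * (q₀ ^ 2 - 1) :=
      Nat.mul_lt_mul_of_pos_left hnum c4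
    nlinarith [c1, c2, c3, h5]
  obtain ⟨φ, hφ, y, hy, α, l, hT⟩ := semi_graph 𝕜 (N := N) (K := N ⊔ zpowers x) (Ph j x)
    le_sup_left (by
      intro φ hφ
      obtain ⟨⟨n, rfl⟩, -⟩ := mem_Ph.1 hφ
      exact mul_mem (mem_sup_left ⟨n, rfl⟩) (mem_sup_right (mem_zpowers x)))
    (fun φ hφ => (mem_Ph.1 hφ).2) hΦN (by
      intro φ hφ ψ hψ
      obtain ⟨⟨n, rfl⟩, -⟩ := mem_Ph.1 hφ
      obtain ⟨⟨m, rfl⟩, -⟩ := mem_Ph.1 hψ
      have h3 := hNx ((j n)⁻¹ * j m) (N.mul_mem (N.inv_mem ⟨n, rfl⟩) ⟨m, rfl⟩)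
      have e : (j n * x)⁻¹ * (j m * x) = x⁻¹ * ((j n)⁻¹ * j m) * x := by group
      rw [e]
      exact h3) hcount
  obtain ⟨⟨n, rfl⟩, hn2⟩ := mem_Ph.1 hφ
  rw [hcp, Finset.mem_filter] at hy
  obtain ⟨hy, hc1, hc2⟩ := hy
  obtain ⟨m1, m2, hne, hcomm⟩ := mem_cp.1 hy
  obtain ⟨⟨A, hA⟩, n1, s1⟩ := mem_iv.1 m1
  obtain ⟨⟨B, hB⟩, n2, s2⟩ := mem_iv.1 m2
  rw [← hA] at n1 s1 hne hcomm hc1
  rw [← hB] at n2 s2 hne hcomm hc2
  refine ⟨A, B, n, pair_pre h2 hj n1 s1 n2 s2 hne hcomm, hn2, hc1, hc2, α, l, ?_⟩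
  have e : QG j A B ⊔ zpowers (j n * x) = zpowers (j n * x) ⊔ V4 y := by
    rw [sup_comm]
    unfold QG V4
    rw [hA, hB]
  rw [e]
  exact hT

end Vale.Agent.P240.R2.H698
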