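import Vale.Agent.P240.R2.H698.TY3
import Vale.Agent.P240.R2.H613.SQ

/-!
# P240: `StmtTY3`, closed form
-/

set_option autoImplicit false

namespace Vale.Agent.P240.R2.H698

open Vale.Agent.P240.R2.H715

universe u v w

theorem stmtTY3 : StmtTY3.{u, v, w} := stmtTY3_of H613.stmtSQ

end Vale.Agent.P240.R2.H698
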