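import Vale.Agent.P240.R2.H698.Graph
import Vale.Agent.P240.R2.H715.SpDefs

/-!
# P240: the cycle of rank three in `PSL_2(q)⟨σ⟩`, `q = q₀ ^ 2`
-/

set_option autoImplicit false
set_option linter.all false

namespace Vale.Agent.P240.R2.H698

open Matrix Subgroup Vale.Agent.P240.K Vale.Agent.P240.R2.H715
open scoped Classical

universe u v w

noncomputable section

variable {K : Type u} [Field K]

lemma sl_det (A : S2 K) : A.1 0 0 * A.1 1 1 - A.1 0 1 * A.1 1 0 = 1 := by
  have := A.2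
  rwa [Matrix.det_fin_two] at this

lemma sq_entries {A : Matrix (Fin 2) (Fin 2) K} {c : K}
    (h : A * A = c • (1 : Matrix (Fin 2) (Fin 2) K)) :
    A 0 0 * A 0 0 + A 0 1 * A 1 0 = c ∧ A 0 0 * A 0 1 + A 0 1 * A 1 1 = 0 ∧
      A 1 0 * A 0 0 + A 1 1 * A 1 0 = 0 ∧ A 1 0 * A 0 1 + A 1 1 * A 1 1 = c := by
  have h1 := congrFun (congrFun h 0) 0
  have h2 := congrFun (congrFun h 0) 1
  have h3 := congrFun (congrFun h 1) 0
  have h4 := congrFun (congrFun h 1) 1
  simp [Matrix.mul_apply, Fin.sum_univ_two] at h1 h2 h3 h4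
  exact ⟨h1, h2, h3, h4⟩

lemma ext2 {A B : Matrix (Fin 2) (Fin 2) K} (h1 : A 0 0 = B 0 0) (h2 : A 0 1 = B 0 1)
    (h3 : A 1 0 = B 1 0) (h4 : A 1 1 = B 1 1) : A = B := by
  ext i j
  fin_cases i <;> fin_cases j <;> assumption

/-- an element with `A² = 1` is `±1` -/
lemma sq_one (h2 : (2 : K) ≠ 0) {A : S2 K} (h : A.1 * A.1 = 1) : A.1 = 1 ∨ A.1 = -1 := by
  obtain ⟨e1, e2, e3, e4⟩ := sq_entries (A := A.1) (c := 1) (by rw [h, one_smul])
  have hd := sl_det A
  set a := A.1 0 0
  set b := A.1 0 1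
  set c := A.1 1 0
  set d := A.1 1 1
  have h5 : a * (a + d) = 2 := by linear_combination e1 + hd
  have h6 : a + d ≠ 0 := by
    intro h6
    rw [h6, mul_zero] at h5
    exact h2 h5.symm
  have hb : b = 0 := by
    have : b * (a + d) = 0 := by linear_combination e2
    exact (mul_eq_zero.1 this).resolve_right h6
  have hc : c = 0 := by
    have : c * (a + d) = 0 := by linear_combination e3
    exact (mul_eq_zero.1 this).resolve_right h6
  have ha : a * a = 1 := by rw [hb, zero_mul, add_zero] at e1; exact e1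
  have had : a * d = 1 := by rw [hb, zero_mul, sub_zero] at hd; exact hd
  have ha0 : a ≠ 0 := fun h => by rw [h, zero_mul] at had; exact zero_ne_one had
  have hda : d = a := mul_left_cancel₀ ha0 (had.trans ha.symm)
  rcases mul_self_eq_one_iff.1 ha with h7 | h7
  · left
    exact ext2 (by rw [Matrix.one_apply_eq]; exact h7) (by simpa using hb) (by simpa using hc)
      (by rw [Matrix.one_apply_eq]; exact hda.trans h7)
  · right
    refine ext2 ?_ ?_ ?_ ?_
    · rw [Matrix.neg_apply, Matrix.one_apply_eq]; exact h7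
    · simpa using hb
    · simpa using hc
    · rw [Matrix.neg_apply, Matrix.one_apply_eq]; exact hda.trans h7

/-- the trace of an element with `A² = -1` -/
lemma tr_zero {A : S2 K} (h : A.1 * A.1 = -1) :
    A.1 1 1 = - A.1 0 0 ∧ A.1 0 0 * A.1 0 0 + A.1 0 1 * A.1 1 0 = -1 := by
  obtain ⟨e1, e2, e3, e4⟩ := sq_entries (A := A.1) (c := -1) (by rw [h, neg_smul, one_smul])
  have hd := sl_det A
  set a := A.1 0 0
  set b := A.1 0 1
  set c := A.1 1 0
  set d := A.1 1 1
  refine ⟨?_, e1⟩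
  by_contra hne
  have h6 : a + d ≠ 0 := fun h => hne (by linear_combination h)
  have ha : a = 0 := by
    have : a * (a + d) = 0 := by linear_combination e1 + hd
    exact (mul_eq_zero.1 this).resolve_right h6
  have hd' : d = 0 := by
    have : d * (a + d) = 0 := by linear_combination e4 + hd
    exact (mul_eq_zero.1 this).resolve_right h6
  exact h6 (by rw [ha, hd', add_zero])

variable {G : Type v} [Group G] {j : S2 K →* G}

lemma j_neg (hj : ∀ h, j h = 1 ↔ h.1 = 1 ∨ h.1 = -1) {g h : S2 K} :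
    j g = j h ↔ g.1 = h.1 ∨ g.1 = - h.1 := by
  have hc : ∀ M : Matrix (Fin 2) (Fin 2) K, (g * h⁻¹ : S2 K).1 = M ↔ g.1 = M * h.1 := by
    intro M
    have e1 : (h⁻¹ : S2 K).1 * h.1 = 1 := by
      have := congrArg Subtype.val (inv_mul_cancel h)
      exact this
    have e2 : h.1 * (h⁻¹ : S2 K).1 = 1 := by
      have := congrArg Subtype.val (mul_inv_cancel h)
      exact this
    constructor
    · rintro rfl
      show g.1 = g.1 * (h⁻¹ : S2 K).1 * h.1
      rw [mul_assoc, e1, mul_one]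
    · intro h3
      show g.1 * (h⁻¹ : S2 K).1 = M
      rw [h3, mul_assoc, e2, mul_one]
  rw [← mul_inv_eq_one, ← map_inv, ← map_mul, hj, hc, hc, one_mul, neg_one_mul]

/-- preimages of involutions -/
lemma inv_pre (h2 : (2 : K) ≠ 0) (hj : ∀ h, j h = 1 ↔ h.1 = 1 ∨ h.1 = -1) {A : S2 K}
    (h1 : j A ≠ 1) (hs : j A * j A = 1) : A.1 * A.1 = -1 := by
  rw [← map_mul, hj] at hs
  rcases hs with h | h
  · exact absurd ((hj A).2 (sq_one h2 h)) h1
  · exact h

/-- preimages of commuting involutions -/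
lemma pair_pre (h2 : (2 : K) ≠ 0) (hj : ∀ h, j h = 1 ↔ h.1 = 1 ∨ h.1 = -1) {A B : S2 K}
    (hA : j A ≠ 1) (hA2 : j A * j A = 1) (hB : j B ≠ 1) (hB2 : j B * j B = 1) (hne : j A ≠ j B)
    (hc : j A * j B = j B * j A) : QP A B := by
  have a2 := inv_pre h2 hj hA hA2
  have b2 := inv_pre h2 hj hB hB2
  refine ⟨a2, b2, ?_⟩
  rw [← map_mul, ← map_mul, j_neg hj] at hc
  rcases hc with h | h
  · exfalso
    have h : A.1 * B.1 = B.1 * A.1 := h
    have h3 : (A * B : S2 K).1 * (A * B : S2 K).1 = 1 := by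
      show A.1 * B.1 * (A.1 * B.1) = 1
      calc A.1 * B.1 * (A.1 * B.1) = A.1 * (B.1 * A.1) * B.1 := by simp only [mul_assoc]
        _ = A.1 * (A.1 * B.1) * B.1 := by rw [h]
        _ = (A.1 * A.1) * (B.1 * B.1) := by simp only [mul_assoc]
        _ = 1 := by rw [a2, b2]; simp
    have h4 : j (A * B) = 1 := (hj _).2 (sq_one h2 h3)
    rw [map_mul] at h4
    exact hne (mul_left_cancel (a := j A) (by rw [h4, hA2]))
  · exact h


/-- entrywise field automorphism on `SL_2(K)` -/
def sg2 (σ : K ≃+* K) (n : S2 K) : S2 K := ⟨n.1.map σ, by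
  rw [Matrix.det_fin_two]
  simp only [Matrix.map_apply]
  rw [← map_mul, ← map_mul, ← map_sub, sl_det, map_one]⟩

section act
variable {σ : K ≃+* K} {x : G}
  (hx : ∀ h h' : S2 K, h'.1 = h.1.map σ → x * j h * x⁻¹ = j h') (hx2 : x ^ 2 = 1)

include hx in
lemma x_act (h : S2 K) : x * j h = j (sg2 σ h) * x := by
  rw [← hx h (sg2 σ h) rfl]; group

include hx hx2 in
lemma sq_n (n : S2 K) : (j n * x) ^ 2 = j (n * sg2 σ n) := by
  calc (j n * x) ^ 2 = j n * (x * j n) * x := by rw [pow_two]; group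
    _ = j n * (j (sg2 σ n) * x) * x := by rw [x_act hx]
    _ = j n * j (sg2 σ n) * x ^ 2 := by rw [pow_two]; group
    _ = j (n * sg2 σ n) := by rw [hx2, mul_one, map_mul]

include hx in
lemma mul_n (n h : S2 K) : (j n * x) * j h = j (n * sg2 σ h) * x := by
  rw [mul_assoc, x_act hx, ← mul_assoc, ← map_mul]

end act

lemma map_mul2 (σ : K ≃+* K) (M N : Matrix (Fin 2) (Fin 2) K) :
    (M * N).map σ = M.map σ * N.map σ := Matrix.map_mul

lemma map_one2 (σ : K ≃+* K) : (1 : Matrix (Fin 2) (Fin 2) K).map σ = 1 :=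
  Matrix.map_one _ (map_zero _) (map_one _)

/-- an involution of the coset that commutes with a given pair -/
lemma exists_n [Fintype K] {q₀ : ℕ} (hodd : Odd q₀) (hq : Nat.card K = q₀ ^ 2) {σ : K ≃+* K}
    (hσ : ∀ y, σ y = y ^ q₀) (hj : ∀ h, j h = 1 ↔ h.1 = 1 ∨ h.1 = -1) {x : G}
    (hx : ∀ h h' : S2 K, h'.1 = h.1.map σ → x * j h * x⁻¹ = j h') (hx2 : x ^ 2 = 1)
    {a b A B : S2 K} (ha : a.1.map σ = a.1) (hb : b.1.map σ = b.1)
    {P P' : Matrix (Fin 2) (Fin 2) K} (h1 : P * P' = 1) (h2 : P' * P = 1)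
    (hA : P * a.1 = A.1 * P) (hB : P * b.1 = B.1 * P) :
    ∃ n : S2 K, (j n * x) ^ 2 = 1 ∧ (j n * x) * j A = j A * (j n * x) ∧
      (j n * x) * j B = j B * (j n * x) := by
  obtain ⟨e, he⟩ := hodd
  have hcard : ∀ y : K, y ^ (q₀ ^ 2) = y := by
    intro y
    rw [← hq, Nat.card_eq_fintype_card]
    exact FiniteField.pow_card y
  have hσσ : ∀ y, σ (σ y) = y := by
    intro y
    rw [hσ, hσ, ← pow_mul, ← pow_two, hcard]
  have hmap : ∀ M : Matrix (Fin 2) (Fin 2) K, (M.map σ).map σ = M := by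
    intro M
    ext i k
    simp [hσσ]
  set d : K := P.det with hd
  set d' : K := P'.det with hd'
  have hdd : d * d' = 1 := by rw [hd, hd', ← Matrix.det_mul, h1, Matrix.det_one]
  have hd0 : d ≠ 0 := left_ne_zero_of_mul_eq_one hdd
  set Q := P.map σ
  set Q' := P'.map σ
  have hQ1 : Q * Q' = 1 := by rw [← map_mul2, h1, map_one2]
  have hQ2 : Q' * Q = 1 := by rw [← map_mul2, h2, map_one2]
  have hQa : Q * a.1 = A.1.map σ * Q := by
    have := congrArg (fun M : Matrix (Fin 2) (Fin 2) K => M.map σ) hA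
    simp only [map_mul2, ha] at this
    exact this
  have hQb : Q * b.1 = B.1.map σ * Q := by
    have := congrArg (fun M : Matrix (Fin 2) (Fin 2) K => M.map σ) hB
    simp only [map_mul2, hb] at this
    exact this
  set c : K := d ^ e with hc
  have hdet : (c • (P * Q')).det = 1 := by
    have h3 : Q'.det = σ d' := by
      rw [Matrix.det_fin_two, hd', Matrix.det_fin_two]
      simp only [Q', Matrix.map_apply, map_sub, map_mul]
    rw [Matrix.det_smul, Matrix.det_mul, h3, hσ, Fintype.card_fin, ← hd]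
    calc c ^ 2 * (d * d' ^ q₀) = (d * d') ^ (2 * e + 1) := by
          rw [hc, he]; ring
      _ = 1 := by rw [hdd, one_pow]
  let n : S2 K := ⟨c • (P * Q'), hdet⟩
  have hn : n.1 = c • (P * Q') := rfl
  have hcomm : ∀ (a A : S2 K), P * a.1 = A.1 * P → Q * a.1 = A.1.map σ * Q →
      n.1 * A.1.map σ = A.1 * n.1 := by
    intro a A h3 h4
    have h5 : Q' * A.1.map σ = a.1 * Q' := by
      calc Q' * A.1.map σ = Q' * (A.1.map σ * Q) * Q' := by
            rw [mul_assoc, mul_assoc, hQ1, mul_one]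
        _ = (Q' * Q) * a.1 * Q' := by rw [← h4]; simp only [mul_assoc]
        _ = a.1 * Q' := by rw [hQ2, one_mul]
    rw [hn, Matrix.smul_mul, Matrix.mul_smul, mul_assoc, h5, ← mul_assoc, h3, mul_assoc]
  have hA' := hcomm a A hA hQa
  have hB' := hcomm b B hB hQb
  refine ⟨n, ?_, ?_, ?_⟩
  · rw [sq_n hx hx2, hj]
    have h3 : (n * sg2 σ n : S2 K).1 = (c * σ c) • (1 : Matrix (Fin 2) (Fin 2) K) := by
      show (c • (P * Q')) * (c • (P * Q')).map σ = _
      have h4 : (c • (P * Q')).map σ = σ c • (Q * P') := by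
        have h5 : (P * Q').map σ = Q * P' := by
          rw [map_mul2, show Q'.map σ = P' from hmap P']
        rw [← h5]
        ext i k
        show σ (c * (P * Q') i k) = σ c * σ ((P * Q') i k)
        rw [map_mul]
      rw [h4, Matrix.smul_mul, Matrix.mul_smul, smul_smul]
      congr 1
      calc P * Q' * (Q * P') = P * (Q' * Q) * P' := by simp only [mul_assoc]
        _ = 1 := by rw [hQ2, mul_one, h1]
    have h4 : (c * σ c) * (c * σ c) = 1 := by
      rw [hσ]
      have h5 : d ^ (q₀ ^ 2 - 1) = 1 := by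
        have := hcard d
        have h6 : 1 ≤ q₀ ^ 2 := by
          rw [he]; nlinarith
        have h7 : d ^ (q₀ ^ 2 - 1) * d = 1 * d := by
          rw [← pow_succ, Nat.sub_add_cancel h6, this, one_mul]
        exact mul_right_cancel₀ hd0 h7
      have h6 : q₀ ^ 2 - 1 = 2 * (e * (q₀ + 1)) := by
        rw [he]
        have : (2 * e + 1) ^ 2 = 2 * (e * (2 * e + 1 + 1)) + 1 := by ring
        omega
      calc c * c ^ q₀ * (c * c ^ q₀) = d ^ (2 * (e * (q₀ + 1))) := by
            rw [hc]; ring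
        _ = 1 := by rw [← h6, h5]
    rcases mul_self_eq_one_iff.1 h4 with h5 | h5
    · left; rw [h3, h5, one_smul]
    · right; rw [h3, h5, neg_smul, one_smul]
  · rw [mul_n hx, ← mul_assoc, ← map_mul]
    congr 2
    exact Subtype.ext hA'
  · rw [mul_n hx, ← mul_assoc, ← map_mul]
    congr 2
    exact Subtype.ext hB'

end

end Vale.Agent.P240.R2.H698
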