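import Vale.Agent.P240.R2.H698.TyA

/-!
# P240: counts for the cycle of rank three in `PSL_2(q)⟨σ⟩`
-/

set_option autoImplicit false
set_option linter.all false

namespace Vale.Agent.P240.R2.H698

open Matrix Subgroup Vale.Agent.P240.K Vale.Agent.P240.R2.H715
open scoped Classical

universe u v w

noncomputable section

variable {K : Type u} [Field K]

/-- diagonalization of an element with `A² = -1` -/
lemma exists_diag (h2 : (2 : K) ≠ 0) {i : K} (hi : i * i = -1) {A : S2 K} (hA : A.1 * A.1 = -1) :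
    ∃ P P' : Matrix (Fin 2) (Fin 2) K, P * P' = 1 ∧ P' * P = 1 ∧
      A.1 * P = P * !![i, 0; 0, -i] := by
  obtain ⟨h3, h4⟩ := tr_zero hA
  have hmain : ∃ P : Matrix (Fin 2) (Fin 2) K, P.det ≠ 0 ∧ A.1 * P = P * !![i, 0; 0, -i] := by
    by_cases h5 : 1 - A.1 0 0 * i = 0
    · -- `X` = the swap
      refine ⟨!![-(A.1 0 1 * i), 1 + A.1 0 0 * i; 1 + A.1 0 0 * i, A.1 1 0 * i], ?_, ?_⟩
      · rw [Matrix.det_fin_two_of]
        have h6 : A.1 0 0 * i = 1 := (sub_eq_zero.1 h5).symm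
        have e : -(A.1 0 1 * i) * (A.1 1 0 * i) - (1 + A.1 0 0 * i) * (1 + A.1 0 0 * i) = -(2 * 2) := by
          linear_combination (-(A.1 0 1 * A.1 1 0) - A.1 0 0 * A.1 0 0) * hi + h4 - 2 * h6
        rw [e]
        exact neg_ne_zero.2 (mul_ne_zero h2 h2)
      · refine ext2 ?_ ?_ ?_ ?_ <;>
          simp [Matrix.mul_apply, Fin.sum_univ_two, h3]
        · linear_combination A.1 0 1 * hi
        · linear_combination A.1 0 0 * hi + i * h4
        · linear_combination -i * h4 - A.1 0 0 * hi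
        · linear_combination A.1 1 0 * hi
    · refine ⟨!![1 - A.1 0 0 * i, A.1 0 1 * i; -(A.1 1 0 * i), 1 - A.1 0 0 * i], ?_, ?_⟩
      · rw [Matrix.det_fin_two_of]
        have e : (1 - A.1 0 0 * i) * (1 - A.1 0 0 * i) - A.1 0 1 * i * -(A.1 1 0 * i) =
            2 * (1 - A.1 0 0 * i) := by
          linear_combination (A.1 0 0 * A.1 0 0 + A.1 0 1 * A.1 1 0) * hi - h4
        rw [e]
        exact mul_ne_zero h2 h5
      · refine ext2 ?_ ?_ ?_ ?_ <;>
          simp [Matrix.mul_apply, Fin.sum_univ_two, h3]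
        · linear_combination A.1 0 0 * hi - i * h4
        · linear_combination A.1 0 1 * hi
        · linear_combination A.1 1 0 * hi
        · linear_combination i * h4 - A.1 0 0 * hi
  obtain ⟨P, hP, hAP⟩ := hmain
  have hu : IsUnit P.det := isUnit_iff_ne_zero.2 hP
  exact ⟨P, P⁻¹, Matrix.mul_nonsing_inv P hu, Matrix.nonsing_inv_mul P hu, hAP⟩


/-- the set of involutions of the coset -/
def Ph {G : Type v} [Group G] [Finite G] (j : S2 K →* G) (x : G) : Finset G :=
  (Set.toFinite {φ : G | (∃ n : S2 K, φ = j n * x) ∧ φ ^ 2 = 1}).toFinset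

section
variable {G : Type v} [Group G] [Finite G] {j : S2 K →* G}

lemma mem_Ph {x φ : G} : φ ∈ Ph j x ↔ (∃ n : S2 K, φ = j n * x) ∧ φ ^ 2 = 1 :=
  Set.Finite.mem_toFinset _

/-- at least four involutions of the coset commute with a given commuting pair -/
lemma four_le [Fintype K] {q₀ : ℕ} (hodd : Odd q₀) (hq : Nat.card K = q₀ ^ 2) {σ : K ≃+* K}
    (hσ : ∀ y, σ y = y ^ q₀) (h2 : (2 : K) ≠ 0) (hj : ∀ h, j h = 1 ↔ h.1 = 1 ∨ h.1 = -1) {x : G}
    (hx : ∀ h h' : S2 K, h'.1 = h.1.map σ → x * j h * x⁻¹ = j h') (hx2 : x ^ 2 = 1)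
    {a b : S2 K} (ha : a.1.map σ = a.1) (hb : b.1.map σ = b.1)
    (hconj : ∀ a' b' : S2 K, QP a' b' → ∃ k k' : Matrix (Fin 2) (Fin 2) K, k * k' = 1 ∧
      k' * k = 1 ∧ k * a.1 = a'.1 * k ∧ k * b.1 = b'.1 * k) {y : G × G} (hy : y ∈ cp j.range) :
    4 ≤ ((Ph j x).filter fun φ => φ * y.1 = y.1 * φ ∧ φ * y.2 = y.2 * φ).card := by
  obtain ⟨⟨y1, z1⟩, hyeq⟩ : ∃ p : G × G, p = y := ⟨y, rfl⟩
  subst hyeq
  obtain ⟨m1, m2, hne, hcomm⟩ := mem_cp.1 hy
  obtain ⟨⟨A, hA⟩, n1, s1⟩ := mem_iv.1 m1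
  obtain ⟨⟨B, hB⟩, n2, s2⟩ := mem_iv.1 m2
  simp only at hA hB n1 n2 s1 s2 hne hcomm
  subst hA
  subst hB
  have hQ := pair_pre h2 hj n1 s1 n2 s2 hne hcomm
  obtain ⟨P, P', h3, h4, h5, h6⟩ := hconj A B hQ
  obtain ⟨n, e1, e2, e3⟩ := exists_n hodd hq hσ hj hx hx2 ha hb h3 h4 h5 h6
  have hP : ∀ C : S2 K, j C ∈ V4 (j A, j B) → j n * x * j C ∈
      (Ph j x).filter fun φ => φ * j A = j A * φ ∧ φ * j B = j B * φ := by
    intro C hC
    have hV := V4_mem hy
    have hAV : j A ∈ V4 (j A, j B) := (mem_V4 hy).2 (Or.inr (Or.inl rfl))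
    have hBV : j B ∈ V4 (j A, j B) := (mem_V4 hy).2 (Or.inr (Or.inr (Or.inl rfl)))
    have cA : j C * j A = j A * j C := hV.1.2.1 _ hC _ hAV
    have cB : j C * j B = j B * j C := hV.1.2.1 _ hC _ hBV
    have cC : j C ^ 2 = 1 := hV.1.2.2 _ hC
    have hcC : (j n * x) * j C = j C * (j n * x) := by
      rcases (mem_V4 hy).1 hC with h | h | h | h
      · rw [h, mul_one, one_mul]
      · rw [h]; exact e2
      · rw [h]; exact e3
      · rw [h]
        calc j n * x * (j A * j B) = (j n * x * j A) * j B := by group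
          _ = j A * (j n * x * j B) := by rw [e2]; group
          _ = j A * j B * (j n * x) := by rw [e3]; group
    rw [Finset.mem_filter, mem_Ph]
    refine ⟨⟨⟨n * sg2 σ C, mul_n hx n C⟩, ?_⟩, ?_, ?_⟩
    · calc (j n * x * j C) ^ 2 = (j n * x) ^ 2 * j C ^ 2 := by
            rw [pow_two, pow_two, pow_two]
            calc j n * x * j C * (j n * x * j C) = j n * x * (j C * (j n * x)) * j C := by group
              _ = j n * x * (j n * x * j C) * j C := by rw [hcC]
              _ = j n * x * (j n * x) * (j C * j C) := by group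
        _ = 1 := by rw [e1, cC, one_mul]
    · calc j n * x * j C * j A = j n * x * (j A * j C) := by rw [← cA]; group
        _ = (j n * x * j A) * j C := by group
        _ = j A * (j n * x * j C) := by rw [e2]; group
    · calc j n * x * j C * j B = j n * x * (j B * j C) := by rw [← cB]; group
        _ = (j n * x * j B) * j C := by group
        _ = j B * (j n * x * j C) := by rw [e3]; group
  have hcard : ((insert 1 (tr (j A, j B)) : Finset G).image fun u => j n * x * u).card = 4 := by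
    rw [Finset.card_image_of_injective _ (mul_right_injective (j n * x)),
      Finset.card_insert_of_notMem, card_tr hy]
    rw [mem_tr hy]
    exact fun h => h.2 rfl
  rw [← hcard]
  refine Finset.card_le_card fun w hw => ?_
  obtain ⟨u, hu, rfl⟩ := Finset.mem_image.1 hw
  have hu2 : u ∈ V4 (j A, j B) := by
    rcases Finset.mem_insert.1 hu with rfl | h
    · exact one_mem _
    · exact ((mem_tr hy).1 h).1
  obtain ⟨C, rfl⟩ : ∃ C, j C = u := by
    rcases (mem_V4 hy).1 hu2 with h | h | h | h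
    · exact ⟨1, by rw [map_one, h]⟩
    · exact ⟨A, h.symm⟩
    · exact ⟨B, h.symm⟩
    · exact ⟨A * B, by rw [map_mul, h]⟩
  exact hP C hu2

end

end

end Vale.Agent.P240.R2.H698
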