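import Vale.Agent.P240.R2.H698.TyB

/-!
# P240: counts for the cycle of rank three in `PSL_2(q)⟨σ⟩`, second part
-/

set_option autoImplicit false
set_option linter.all false

namespace Vale.Agent.P240.R2.H698

open Matrix Subgroup Vale.Agent.P240.K Vale.Agent.P240.R2.H715
open scoped Classical

universe u v w

noncomputable section

variable {K : Type u} [Field K]

section
variable {G : Type v} [Group G] [Finite G] {j : S2 K →* G}

/-- at most `2 q₀` involutions of the coset commute with a given involution -/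
lemma le_two [Fintype K] {q₀ : ℕ} (hq₀ : 2 ≤ q₀) (hq : Nat.card K = q₀ ^ 2) {σ : K ≃+* K}
    (hσ : ∀ y, σ y = y ^ q₀) (h2 : (2 : K) ≠ 0) (hj : ∀ h, j h = 1 ↔ h.1 = 1 ∨ h.1 = -1) {x : G}
    (hx : ∀ h h' : S2 K, h'.1 = h.1.map σ → x * j h * x⁻¹ = j h') (hx2 : x ^ 2 = 1)
    {i : K} (hi : i * i = -1) {A : S2 K} (hA : A.1 * A.1 = -1) :
    ((Ph j x).filter fun φ => φ * j A = j A * φ).card ≤ 2 * q₀ := by
  obtain ⟨P, P', h3, h4, h5⟩ := exists_diag h2 hi hA
  have hi0 : i ≠ 0 := by
    rintro rfl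
    rw [zero_mul] at hi
    exact neg_ne_zero.2 one_ne_zero hi.symm
  set D : Matrix (Fin 2) (Fin 2) K := !![i, 0; 0, -i] with hD
  set Q := P.map σ
  set Q' := P'.map σ
  have hQ1 : Q * Q' = 1 := by rw [← map_mul2, h3, map_one2]
  have hQ2 : Q' * Q = 1 := by rw [← map_mul2, h4, map_one2]
  have hcard : ∀ y : K, y ^ (q₀ ^ 2) = y := by
    intro y
    rw [← hq, Nat.card_eq_fintype_card]
    exact FiniteField.pow_card y
  have hσσ : ∀ y, σ (σ y) = y := by
    intro y
    rw [hσ, hσ, ← pow_mul, ← pow_two, hcard]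
  have hmap : ∀ M : Matrix (Fin 2) (Fin 2) K, (M.map σ).map σ = M := by
    intro M
    ext i k
    simp [hσσ]
  have hPA : P' * A.1 = D * P' := by
    calc P' * A.1 = P' * (A.1 * P) * P' := by rw [mul_assoc, mul_assoc, h3, mul_one]
      _ = (P' * P) * D * P' := by rw [h5]; simp only [mul_assoc]
      _ = D * P' := by rw [h4, one_mul]
  have hQD : A.1.map σ * Q = Q * D.map σ := by
    rw [← map_mul2, h5, map_mul2]
  have hDσ : D.map σ = D ∨ D.map σ = -D := by
    have h6 : σ i * σ i = i * i := by rw [← map_mul, hi, map_neg, map_one]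
    rcases mul_self_eq_mul_self_iff.1 h6 with h7 | h7
    · left
      refine ext2 ?_ ?_ ?_ ?_ <;> simp [hD, h7]
    · right
      refine ext2 ?_ ?_ ?_ ?_ <;> simp [hD, h7]
  -- the matrix in the eigenbasis
  let N : S2 K → Matrix (Fin 2) (Fin 2) K := fun n => P' * n.1 * Q
  have hNn : ∀ n : S2 K, n.1 = P * N n * Q' := by
    intro n
    calc n.1 = (P * P') * n.1 * (Q * Q') := by rw [h3, hQ1]; simp
      _ = P * N n * Q' := by simp only [N, mul_assoc]
  set δ : K := P'.det * Q.det with hδ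
  have hδ0 : δ ≠ 0 := by
    have e1 : P.det * P'.det = 1 := by rw [← Matrix.det_mul, h3, Matrix.det_one]
    have e2 : Q.det * Q'.det = 1 := by rw [← Matrix.det_mul, hQ1, Matrix.det_one]
    exact mul_ne_zero (right_ne_zero_of_mul_eq_one e1) (left_ne_zero_of_mul_eq_one e2)
  have hdet : ∀ n : S2 K, N n 0 0 * N n 1 1 - N n 0 1 * N n 1 0 = δ := by
    intro n
    rw [← Matrix.det_fin_two]
    simp only [N]
    rw [Matrix.det_mul, Matrix.det_mul, n.2, mul_one]
  set S := (Ph j x).filter fun φ => φ * j A = j A * φ with hS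
  have hch : ∀ φ : G, ∃ n : S2 K, φ ∈ S → φ = j n * x := by
    intro φ
    by_cases h : φ ∈ S
    · obtain ⟨n, hn⟩ := (mem_Ph.1 (Finset.mem_filter.1 h).1).1
      exact ⟨n, fun _ => hn⟩
    · exact ⟨1, fun h' => absurd h' h⟩
  choose nn hnn using hch
  have hsign : ∀ φ ∈ S, ∀ ψ ∈ S, (N (nn φ) = N (nn ψ) ∨ N (nn φ) = - N (nn ψ)) → φ = ψ := by
    intro φ hφ ψ hψ h
    rw [hnn φ hφ, hnn ψ hψ]
    congr 1
    rw [j_neg hj, hNn (nn φ), hNn (nn ψ)]
    rcases h with h | h
    · left; rw [h]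
    · right; rw [h]; simp
  have htype : ∀ φ ∈ S, (N (nn φ) 0 1 = 0 ∧ N (nn φ) 1 0 = 0) ∨
      (N (nn φ) 0 0 = 0 ∧ N (nn φ) 1 1 = 0) := by
    intro φ hφ
    have h6 := (Finset.mem_filter.1 hφ).2
    rw [hnn φ hφ, mul_n hx, ← mul_assoc, ← map_mul] at h6
    have h7 := mul_right_cancel h6
    rw [j_neg hj] at h7
    have e1 : (nn φ * sg2 σ A : S2 K).1 = (nn φ).1 * A.1.map σ := rfl
    have e2 : (A * nn φ : S2 K).1 = A.1 * (nn φ).1 := rfl
    rw [e1, e2] at h7
    have e3 : N (nn φ) * D.map σ = P' * ((nn φ).1 * A.1.map σ) * Q := by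
      simp only [N]
      rw [mul_assoc, mul_assoc, ← hQD]
      simp only [mul_assoc]
    have e4 : P' * (A.1 * (nn φ).1) * Q = D * N (nn φ) := by
      simp only [N]
      rw [← mul_assoc, hPA]
      simp only [mul_assoc]
    have h8 : N (nn φ) * D.map σ = D * N (nn φ) ∨ N (nn φ) * D.map σ = - (D * N (nn φ)) := by
      rcases h7 with h7 | h7
      · left; rw [e3, h7, e4]
      · right; rw [e3, h7, ← e4]; simp
    have h9 : N (nn φ) * D = D * N (nn φ) ∨ N (nn φ) * D = - (D * N (nn φ)) := by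
      rcases hDσ with h10 | h10
      · rwa [h10] at h8
      · rw [h10, mul_neg, neg_eq_iff_eq_neg, neg_inj] at h8
        exact h8.symm
    have h2i : 2 * i ≠ 0 := mul_ne_zero h2 hi0
    rcases h9 with h9 | h9
    · left
      have f1 := congrFun (congrFun h9 0) 1
      have f2 := congrFun (congrFun h9 1) 0
      simp [hD, Matrix.mul_apply, Fin.sum_univ_two] at f1 f2
      constructor
      · have : 2 * i * N (nn φ) 0 1 = 0 := by linear_combination -f1
        exact (mul_eq_zero.1 this).resolve_left h2i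
      · have : 2 * i * N (nn φ) 1 0 = 0 := by linear_combination f2
        exact (mul_eq_zero.1 this).resolve_left h2i
    · right
      have f1 : (N (nn φ) * D) 0 0 = -((D * N (nn φ)) 0 0) := by rw [h9]; rfl
      have f2 : (N (nn φ) * D) 1 1 = -((D * N (nn φ)) 1 1) := by rw [h9]; rfl
      rw [Matrix.mul_apply, Matrix.mul_apply, Fin.sum_univ_two, Fin.sum_univ_two] at f1 f2
      simp [hD] at f1 f2
      constructor
      · have : 2 * i * N (nn φ) 0 0 = 0 := by linear_combination f1
        exact (mul_eq_zero.1 this).resolve_left h2i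
      · have : 2 * i * N (nn φ) 1 1 = 0 := by linear_combination -f2
        exact (mul_eq_zero.1 this).resolve_left h2i
  have hnorm : ∀ φ ∈ S, N (nn φ) * (N (nn φ)).map σ = 1 ∨ N (nn φ) * (N (nn φ)).map σ = -1 := by
    intro φ hφ
    have h6 := (mem_Ph.1 (Finset.mem_filter.1 hφ).1).2
    rw [hnn φ hφ, sq_n hx hx2, hj] at h6
    have e1 : (nn φ * sg2 σ (nn φ) : S2 K).1 = (nn φ).1 * (nn φ).1.map σ := rfl
    rw [e1] at h6
    have e2 : N (nn φ) * (N (nn φ)).map σ = P' * ((nn φ).1 * (nn φ).1.map σ) * P := by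
      have e3 : (N (nn φ)).map σ = Q' * (nn φ).1.map σ * P := by
        simp only [N]
        rw [map_mul2, map_mul2, show Q.map σ = P from hmap P]
      rw [e3]
      simp only [N]
      calc P' * (nn φ).1 * Q * (Q' * (nn φ).1.map σ * P) =
          P' * (nn φ).1 * (Q * Q') * ((nn φ).1.map σ * P) := by simp only [mul_assoc]
        _ = P' * ((nn φ).1 * (nn φ).1.map σ) * P := by rw [hQ1, mul_one]; simp only [mul_assoc]
    rcases h6 with h6 | h6
    · left; rw [e2, h6, mul_one, h4]
    · right; rw [e2, h6, mul_neg, mul_one, neg_mul, h4]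
  -- the two types
  have hsub : S ⊆ (S.filter fun φ => N (nn φ) 0 1 = 0 ∧ N (nn φ) 1 0 = 0) ∪
      (S.filter fun φ => N (nn φ) 0 0 = 0 ∧ N (nn φ) 1 1 = 0) := by
    intro φ hφ
    rw [Finset.mem_union]
    exact (htype φ hφ).imp (fun h => Finset.mem_filter.2 ⟨hφ, h⟩)
      fun h => Finset.mem_filter.2 ⟨hφ, h⟩
  have hc1 : (S.filter fun φ => N (nn φ) 0 1 = 0 ∧ N (nn φ) 1 0 = 0).card ≤ q₀ + 1 := by
    have h6 : ((Polynomial.nthRoots (q₀ + 1) (1 : K)).toFinset).card ≤ q₀ + 1 :=
      (Multiset.toFinset_card_le _).trans (Polynomial.card_nthRoots _ _)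
    refine (Finset.card_le_card_of_injOn (fun φ => N (nn φ) 0 0 ^ 2) ?_ ?_).trans h6
    · intro φ hφ
      obtain ⟨hφ, h7, h8⟩ := Finset.mem_filter.1 hφ
      rw [Finset.mem_coe, Multiset.mem_toFinset, Polynomial.mem_nthRoots (Nat.succ_pos _)]
      have h9 : N (nn φ) 0 0 * σ (N (nn φ) 0 0) = 1 ∨ N (nn φ) 0 0 * σ (N (nn φ) 0 0) = -1 := by
        rcases hnorm φ hφ with h | h
        · left
          have := congrFun (congrFun h 0) 0
          simpa [Matrix.mul_apply, Fin.sum_univ_two, h7] using this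
        · right
          have := congrFun (congrFun h 0) 0
          simpa [Matrix.mul_apply, Fin.sum_univ_two, h7] using this
      have h10 : (N (nn φ) 0 0 ^ 2) ^ (q₀ + 1) =
          (N (nn φ) 0 0 * σ (N (nn φ) 0 0)) * (N (nn φ) 0 0 * σ (N (nn φ) 0 0)) := by
        rw [hσ]; ring
      show (N (nn φ) 0 0 ^ 2) ^ (q₀ + 1) = 1
      rw [h10]
      rcases h9 with h | h <;> rw [h] <;> simp
    · intro φ hφ ψ hψ h
      obtain ⟨hφ, h7, h8⟩ := Finset.mem_filter.1 hφ
      obtain ⟨hψ, h9, h10⟩ := Finset.mem_filter.1 hψ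
      simp only at h
      have d1 := hdet (nn φ)
      have d2 := hdet (nn ψ)
      rw [h7, zero_mul, sub_zero] at d1
      rw [h9, zero_mul, sub_zero] at d2
      have u0 : N (nn φ) 0 0 ≠ 0 := fun h => hδ0 (by rw [← d1, h, zero_mul])
      rcases sq_eq_sq_iff_eq_or_eq_neg.1 h with e | e
      · refine hsign φ hφ ψ hψ (Or.inl (ext2 e (by rw [h7, h9]) (by rw [h8, h10]) ?_))
        rw [e] at d1 u0
        exact mul_left_cancel₀ u0 (d1.trans d2.symm)
      · refine hsign φ hφ ψ hψ (Or.inr (ext2 e (by simp [h7, h9]) (by simp [h8, h10]) ?_))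
        apply mul_left_cancel₀ u0
        rw [d1, e]
        simp [d2]
  have hc2 : (S.filter fun φ => N (nn φ) 0 0 = 0 ∧ N (nn φ) 1 1 = 0).card ≤ q₀ - 1 := by
    have h6 : ((Polynomial.nthRoots (q₀ - 1) (σ δ ^ 2)).toFinset).card ≤ q₀ - 1 :=
      (Multiset.toFinset_card_le _).trans (Polynomial.card_nthRoots _ _)
    refine (Finset.card_le_card_of_injOn (fun φ => N (nn φ) 0 1 ^ 2) ?_ ?_).trans h6
    · intro φ hφ
      obtain ⟨hφ, h7, h8⟩ := Finset.mem_filter.1 hφ
      rw [Finset.mem_coe, Multiset.mem_toFinset, Polynomial.mem_nthRoots (by omega)]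
      have h9 : N (nn φ) 0 1 * σ (N (nn φ) 1 0) = 1 ∨ N (nn φ) 0 1 * σ (N (nn φ) 1 0) = -1 := by
        rcases hnorm φ hφ with h | h
        · left
          have := congrFun (congrFun h 0) 0
          simpa [Matrix.mul_apply, Fin.sum_univ_two, h7] using this
        · right
          have := congrFun (congrFun h 0) 0
          simpa [Matrix.mul_apply, Fin.sum_univ_two, h7] using this
      have h10 : (N (nn φ) 0 1 * σ (N (nn φ) 1 0)) * (N (nn φ) 0 1 * σ (N (nn φ) 1 0)) = 1 := by
        rcases h9 with h | h <;> rw [h] <;> simp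
      have d1 := hdet (nn φ)
      rw [h7, zero_mul, zero_sub] at d1
      have d2 : - (σ (N (nn φ) 0 1) * σ (N (nn φ) 1 0)) = σ δ := by
        rw [← d1, map_neg, map_mul]
      have u0 : N (nn φ) 0 1 ≠ 0 := fun h => by
        rw [h, zero_mul, zero_mul] at h10
        exact zero_ne_one h10
      show (N (nn φ) 0 1 ^ 2) ^ (q₀ - 1) = σ δ ^ 2
      apply mul_right_cancel₀ (pow_ne_zero 2 u0)
      rw [← pow_succ, Nat.sub_add_cancel (by omega), ← d2, ← pow_mul, mul_comm 2 q₀, pow_mul, ← hσ]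
      linear_combination (- σ (N (nn φ) 0 1) ^ 2) * h10
    · intro φ hφ ψ hψ h
      obtain ⟨hφ, h7, h8⟩ := Finset.mem_filter.1 hφ
      obtain ⟨hψ, h9, h10⟩ := Finset.mem_filter.1 hψ
      simp only at h
      have d1 := hdet (nn φ)
      have d2 := hdet (nn ψ)
      rw [h7, zero_mul, zero_sub] at d1
      rw [h9, zero_mul, zero_sub] at d2
      have u0 : N (nn φ) 0 1 ≠ 0 := fun h => hδ0 (by rw [← d1, h, zero_mul, neg_zero])
      have d3 : N (nn φ) 0 1 * N (nn φ) 1 0 = N (nn ψ) 0 1 * N (nn ψ) 1 0 :=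
        neg_injective (d1.trans d2.symm)
      rcases sq_eq_sq_iff_eq_or_eq_neg.1 h with e | e
      · refine hsign φ hφ ψ hψ (Or.inl (ext2 (by rw [h7, h9]) e ?_ (by rw [h8, h10])))
        rw [e] at d3 u0
        exact mul_left_cancel₀ u0 d3
      · refine hsign φ hφ ψ hψ (Or.inr (ext2 (by simp [h7, h9]) e ?_ (by simp [h8, h10])))
        apply mul_left_cancel₀ u0
        rw [d3, e]
        simp
  have h6 := Finset.card_le_card hsub
  have h7 := Finset.card_union_le (S.filter fun φ => N (nn φ) 0 1 = 0 ∧ N (nn φ) 1 0 = 0)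
    (S.filter fun φ => N (nn φ) 0 0 = 0 ∧ N (nn φ) 1 1 = 0)
  omega

/-- an involution of `PSL_2(q)` commutes with at least `(q - 1) / 2` others -/
lemma le_nb [Fintype K] (h2 : (2 : K) ≠ 0) (hj : ∀ h, j h = 1 ↔ h.1 = 1 ∨ h.1 = -1)
    {i : K} (hi : i * i = -1) {A : S2 K} (hA : A.1 * A.1 = -1) :
    Nat.card K - 1 ≤ 2 * ((cp j.range).filter fun p => p.1 = j A).card := by
  obtain ⟨P, P', h3, h4, h5⟩ := exists_diag h2 hi hA
  set D : Matrix (Fin 2) (Fin 2) K := !![i, 0; 0, -i] with hD
  let E : K → Matrix (Fin 2) (Fin 2) K := fun s => !![0, s; -s⁻¹, 0]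
  have hE : ∀ s, s ≠ 0 → E s * E s = -1 := by
    intro s hs
    refine ext2 ?_ ?_ ?_ ?_ <;> simp [E, Matrix.mul_apply, Fin.sum_univ_two, hs]
  have hED : ∀ s, D * E s = - (E s * D) := by
    intro s
    refine ext2 ?_ ?_ ?_ ?_ <;> simp [E, hD, Matrix.mul_apply, Fin.sum_univ_two, mul_comm]
  have hdet : ∀ s, s ≠ 0 → (P * E s * P').det = 1 := by
    intro s hs
    have e1 : P.det * P'.det = 1 := by rw [← Matrix.det_mul, h3, Matrix.det_one]
    have e2 : (E s).det = 1 := by
      simp only [E]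
      rw [Matrix.det_fin_two_of]
      field_simp
      ring
    rw [Matrix.det_mul, Matrix.det_mul, e2, mul_one, e1]
  have hex : ∀ s : K, ∃ B : S2 K, s ≠ 0 → B.1 = P * E s * P' := by
    intro s
    by_cases hs : s ≠ 0
    · exact ⟨⟨P * E s * P', hdet s hs⟩, fun _ => rfl⟩
    · exact ⟨1, fun h => absurd h hs⟩
  choose B hB using hex
  have hAP : A.1 = P * D * P' := by
    rw [← h5, mul_assoc, h3, mul_one]
  have hBB : ∀ s, s ≠ 0 → (B s).1 * (B s).1 = -1 := by
    intro s hs
    rw [hB s hs]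
    calc P * E s * P' * (P * E s * P') = P * E s * (P' * P) * (E s * P') := by
          simp only [mul_assoc]
      _ = P * (E s * E s) * P' := by rw [h4, mul_one]; simp only [mul_assoc]
      _ = -1 := by rw [hE s hs]; simp [h3]
  have hAB : ∀ s, s ≠ 0 → A.1 * (B s).1 = - ((B s).1 * A.1) := by
    intro s hs
    rw [hB s hs, hAP]
    calc P * D * P' * (P * E s * P') = P * D * (P' * P) * (E s * P') := by
          simp only [mul_assoc]
      _ = P * (D * E s) * P' := by rw [h4, mul_one]; simp only [mul_assoc]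
      _ = - (P * E s * (P' * P) * (D * P')) := by rw [hED, h4, mul_one]; simp [mul_assoc]
      _ = - (P * E s * P' * (P * D * P')) := by simp only [mul_assoc]
  have hne1 : ∀ C : S2 K, C.1 * C.1 = -1 → j C ≠ 1 := by
    intro C hC h
    have h6 : C.1 * C.1 = 1 := by
      rcases (hj C).1 h with h | h <;> rw [h] <;> simp
    rw [hC] at h6
    have h7 := congrFun (congrFun h6 0) 0
    rw [Matrix.neg_apply, Matrix.one_apply_eq] at h7
    exact h2 (by linear_combination -h7)
  have hinv : ∀ C : S2 K, C.1 * C.1 = -1 → j C ∈ iv j.range := by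
    intro C hC
    refine mem_iv.2 ⟨⟨C, rfl⟩, hne1 C hC, ?_⟩
    rw [← map_mul, hj]
    exact Or.inr hC
  have hmem : ∀ s, s ≠ 0 → (j A, j (B s)) ∈ (cp j.range).filter fun p => p.1 = j A := by
    intro s hs
    refine Finset.mem_filter.2 ⟨mem_cp.2 ⟨hinv A hA, hinv _ (hBB s hs), ?_, ?_⟩, rfl⟩
    · intro h
      have h6 : A.1 * (B s).1 = (B s).1 * A.1 := by
        rcases (j_neg hj).1 h with h | h
        · rw [h]
        · rw [h]; simp
      rw [hAB s hs] at h6
      have h7 : (B s).1 * A.1 = 0 := by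
        have h8 : (2 : K) • ((B s).1 * A.1) = 0 := by
          rw [two_smul]
          nth_rewrite 1 [← h6]
          simp
        exact (smul_eq_zero.1 h8).resolve_left h2
      have h8 : (B s * A : S2 K).1 = 0 := h7
      have h9 := (B s * A).2
      rw [h8, Matrix.det_fin_two] at h9
      simp at h9
    · show j A * j (B s) = j (B s) * j A
      rw [← map_mul, ← map_mul, j_neg hj]
      exact Or.inr (hAB s hs)
  have hcard : ((Finset.univ : Finset K).erase 0).card = Nat.card K - 1 := by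
    rw [Finset.card_erase_of_mem (Finset.mem_univ _), Finset.card_univ, Nat.card_eq_fintype_card]
  rw [← hcard]
  refine (Finset.card_le_mul_card_image (f := fun s => (j A, j (B s))) _ 2 ?_).trans
    (Nat.mul_le_mul_left 2 (Finset.card_le_card ?_))
  · intro p hp
    obtain ⟨s, hs, rfl⟩ := Finset.mem_image.1 hp
    have hs0 : s ≠ 0 := (Finset.mem_erase.1 hs).1
    have h6 : (((Finset.univ : Finset K).erase 0).filter fun t => (j A, j (B t)) = (j A, j (B s))) ⊆
        {s, -s} := by
      intro t ht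
      obtain ⟨ht1, ht2⟩ := Finset.mem_filter.1 ht
      have ht0 : t ≠ 0 := (Finset.mem_erase.1 ht1).1
      have h7 := (Prod.mk.inj ht2).2
      rw [j_neg hj, hB t ht0, hB s hs0] at h7
      have h8 : ∀ M : Matrix (Fin 2) (Fin 2) K, P' * (P * M * P') * P = M := by
        intro M
        calc P' * (P * M * P') * P = (P' * P) * M * (P' * P) := by simp only [mul_assoc]
          _ = M := by rw [h4, one_mul, mul_one]
      rw [Finset.mem_insert, Finset.mem_singleton]
      rcases h7 with h7 | h7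
      · left
        have h9 := congrArg (fun M => (P' * M * P) 0 1) h7
        simp only [h8] at h9
        simpa [E] using h9
      · right
        have h9 := congrArg (fun M => (P' * M * P) 0 1) h7
        have h10 : P' * -(P * E s * P') * P = - E s := by
          rw [mul_neg, neg_mul, h8]
        simp only [h8, h10] at h9
        simpa [E] using h9
    exact (Finset.card_le_card h6).trans Finset.card_le_two
  · intro p hp
    obtain ⟨s, hs, rfl⟩ := Finset.mem_image.1 hp
    exact hmem s (Finset.mem_erase.1 hs).1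

end

end

end Vale.Agent.P240.R2.H698
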